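import Vale.Agent.P065.R2.H919.SharpStmt

/-!
# P065, stage B': one step of the recursion with constant multiples (helper427)
-/

set_option autoImplicit false

namespace Vale.Agent.P065.R2.H427.Gen

open Finset Vale.Agent.P065.R2.H919

/-- the geometric sum over equal blocks -/
theorem geo (u r lam : ℕ) (h : r + lam ≤ u) :
    ∀ k ≤ lam, ∑ i ∈ range (k * 2 ^ r), (2 : ℝ) ^ (u - r - 1 - i / 2 ^ r) =
      (2 : ℝ) ^ u - (2 : ℝ) ^ (u - k) := by
  intro k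
  induction k with
  | zero => intro _; simp
  | succ k ih =>
    intro hk
    have h1 := ih (by omega)
    rw [add_mul, one_mul, sum_range_add, h1]
    have h2 : ∀ x ∈ range (2 ^ r), (2 : ℝ) ^ (u - r - 1 - (k * 2 ^ r + x) / 2 ^ r) =
        (2 : ℝ) ^ (u - r - 1 - k) := by
      intro x hx
      rw [mem_range] at hx
      have h3 : (k * 2 ^ r + x) / 2 ^ r = k := by
        rw [mul_comm, Nat.mul_add_div (by positivity), Nat.div_eq_of_lt hx, add_zero]
      rw [h3]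
    rw [sum_congr rfl h2, sum_const, card_range, nsmul_eq_mul]
    push_cast
    have e1 : (2 : ℝ) ^ r * (2 : ℝ) ^ (u - r - 1 - k) = (2 : ℝ) ^ (u - (k + 1)) := by
      rw [← pow_add]
      congr 1
      omega
    have e2 : (2 : ℝ) ^ (u - k) = 2 * (2 : ℝ) ^ (u - (k + 1)) := by
      rw [← pow_succ']
      congr 1
      omega
    rw [e2]
    linear_combination e1

/-- the data of the step -/
structure Dt (b c ν α γ κ ζ D N Rr H Z Zl : ℝ) (u r lam R m : ℕ) (y : ℕ → ℝ) : Prop where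
  b1 : 1 ≤ b
  bc : b ≤ c
  hrl : r + lam ≤ u
  hlam : 1 ≤ lam
  hR : R = 2 ^ r
  hm : m = lam * R
  hmN : (m : ℝ) = N
  hy : y = fun i => (2 : ℝ) ^ (u - r - 1 - i / R)
  hZ : Z = (2 : ℝ) ^ u
  hZl : Zl = (2 : ℝ) ^ (u - lam)
  hH : H = (2 : ℝ) ^ (u - r - 1)
  hRr : Rr = (2 : ℝ) ^ r
  ν0 : 0 ≤ ν
  α0 : 0 ≤ α
  γ0 : 0 ≤ γ
  κ0 : 0 ≤ κ
  ζ0 : 0 ≤ ζ
  D1 : 1 ≤ D
  hκ : κ ≤ D * Rr
  hζ : ζ ≤ D * Rr
  hαγ : 3 * c * (α + γ) ≤ α * Rr
  hαZ : α * Zl ≤ D * Z
  hN6 : 6 * N ≤ Zl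

namespace Dt

variable {b c ν α γ κ ζ D N Rr H Z Zl : ℝ} {u r lam R m : ℕ} {y : ℕ → ℝ}

theorem c1 (h : Dt b c ν α γ κ ζ D N Rr H Z Zl u r lam R m y) : 1 ≤ c := h.b1.trans h.bc

theorem Rpos (h : Dt b c ν α γ κ ζ D N Rr H Z Zl u r lam R m y) : 0 < R := by
  rw [h.hR]; positivity

theorem Z1 (h : Dt b c ν α γ κ ζ D N Rr H Z Zl u r lam R m y) : 1 ≤ Z := by
  rw [h.hZ]; exact one_le_pow₀ (by norm_num)

theorem Zl0 (h : Dt b c ν α γ κ ζ D N Rr H Z Zl u r lam R m y) : 0 < Zl := by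
  rw [h.hZl]; positivity

theorem H0 (h : Dt b c ν α γ κ ζ D N Rr H Z Zl u r lam R m y) : 0 < H := by
  rw [h.hH]; positivity

theorem Rr0 (h : Dt b c ν α γ κ ζ D N Rr H Z Zl u r lam R m y) : 0 < Rr := by
  rw [h.hRr]; positivity

theorem y0 (h : Dt b c ν α γ κ ζ D N Rr H Z Zl u r lam R m y) (i : ℕ) : 0 < y i := by
  rw [h.hy]; positivity

theorem yH (h : Dt b c ν α γ κ ζ D N Rr H Z Zl u r lam R m y) (i : ℕ) : y i ≤ H := by
  rw [h.hy, h.hH]
  exact pow_le_pow_right₀ (by norm_num) (Nat.sub_le _ _)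

theorem geo' (h : Dt b c ν α γ κ ζ D N Rr H Z Zl u r lam R m y) (k : ℕ)
    (hk : k ≤ lam) : ∑ i ∈ range (k * R), y i = Z - (2 : ℝ) ^ (u - k) := by
  rw [h.hZ, h.hy, h.hR]
  exact geo u r lam h.hrl k hk

theorem sumy (h : Dt b c ν α γ κ ζ D N Rr H Z Zl u r lam R m y) :
    ∑ i ∈ range m, y i = Z - Zl := by
  rw [h.hm, h.geo' lam le_rfl, h.hZl]

theorem ZlZ (h : Dt b c ν α γ κ ζ D N Rr H Z Zl u r lam R m y) : Zl ≤ Z := by
  rw [h.hZl, h.hZ]
  exact pow_le_pow_right₀ (by norm_num) (Nat.sub_le _ _)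

theorem blk (h : Dt b c ν α γ κ ζ D N Rr H Z Zl u r lam R m y) (i : ℕ)
    (hi : i < m) : i / R < lam := by
  rw [Nat.div_lt_iff_lt_mul h.Rpos, ← h.hm]
  exact hi

theorem yY (h : Dt b c ν α γ κ ζ D N Rr H Z Zl u r lam R m y) (i : ℕ)
    (hi : i < m) : Rr * y i = (2 : ℝ) ^ (u - (i / R + 1)) := by
  have h1 := h.blk i hi
  have h2 := h.hrl
  rw [h.hRr, h.hy]
  show (2 : ℝ) ^ r * 2 ^ (u - r - 1 - i / R) = _
  rw [← pow_add]
  generalize i / R = l at *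
  congr 1
  omega

theorem HZ (h : Dt b c ν α γ κ ζ D N Rr H Z Zl u r lam R m y) : 2 * Rr * H = Z := by
  have h1 := h.hrl
  have h2 := h.hlam
  rw [h.hRr, h.hH, h.hZ]
  have : (2 : ℝ) * 2 ^ r * 2 ^ (u - r - 1) = 2 ^ (1 + r + (u - r - 1)) := by
    rw [pow_add, pow_add, pow_one]
  rw [this]
  congr 1
  omega

theorem m1 (h : Dt b c ν α γ κ ζ D N Rr H Z Zl u r lam R m y) : 1 ≤ m := by
  have h1 := h.Rpos
  have h2 := h.hlam
  rw [h.hm]
  exact Nat.one_le_iff_ne_zero.2 (Nat.mul_ne_zero (by omega) (by omega))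

theorem N1 (h : Dt b c ν α γ κ ζ D N Rr H Z Zl u r lam R m y) : 1 ≤ N := by
  rw [← h.hmN]
  exact_mod_cast h.m1

theorem DZ1 (h : Dt b c ν α γ κ ζ D N Rr H Z Zl u r lam R m y) : 1 ≤ D * Z :=
  one_le_mul_of_one_le_of_one_le h.D1 h.Z1

/-- the constant `K` -/
theorem K3 (h : Dt b c ν α γ κ ζ D N Rr H Z Zl u r lam R m y) :
    κ * H + ζ * H + D * Z + 1 ≤ 3 * (D * Z) := by
  have h1 : κ * H ≤ D * Rr * H := mul_le_mul_of_nonneg_right h.hκ h.H0.le
  have h2 : ζ * H ≤ D * Rr * H := mul_le_mul_of_nonneg_right h.hζ h.H0.le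
  have h3 : D * Rr * H = D * Z / 2 := by rw [← h.HZ]; ring
  have h4 := h.DZ1
  linarith only [h1, h2, h3, h4]

/-- the condition on `M` at core `i` -/
theorem condM (h : Dt b c ν α γ κ ζ D N Rr H Z Zl u r lam R m y) {K : ℝ}
    (hK3 : K ≤ 3 * (D * Z)) (hK0 : 0 ≤ K) (i : ℕ) (hi : i < m) :
    ∑ j ∈ range (i + 1), (α * y j + b * K) +
        (c * (α * y i + γ * y i + α * y (i - 1) + γ * y (i - 1)) + c * K) ≤
      α * (Z - Zl) + N * (b * K) + (1 + 3 * c) * (D * Z) := by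
  have hl := h.blk i hi
  have hYi := h.yY i hi
  have hrl := h.hrl
  obtain ⟨Y, hY⟩ : ∃ Y : ℝ, Y = (2 : ℝ) ^ (u - (i / R + 1)) := ⟨_, rfl⟩
  rw [← hY] at hYi
  have h1 : ∑ j ∈ range (i + 1), y j ≤ Z - Y := by
    have h2 := h.geo' (i / R + 1) (by omega)
    rw [← hY] at h2
    rw [← h2]
    refine sum_le_sum_of_subset_of_nonneg ?_ (fun j _ _ => (h.y0 j).le)
    refine range_subset_range.2 ?_
    have h3 : i < R * (i / R + 1) := Nat.lt_mul_div_succ i h.Rpos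
    have h4 : (i / R + 1) * R = R * (i / R + 1) := by ring
    rw [h4]
    omega
  have hy' : y (i - 1) ≤ 2 * y i := by
    have h5 : i / R ≤ (i - 1) / R + 1 := by
      have h6 : i / R ≤ ((i - 1) + R) / R := Nat.div_le_div_right (by have := h.Rpos; omega)
      rw [Nat.add_div_right _ h.Rpos] at h6
      exact h6
    rw [h.hy]
    show (2 : ℝ) ^ (u - r - 1 - (i - 1) / R) ≤ 2 * 2 ^ (u - r - 1 - i / R)
    rw [← pow_succ']
    refine pow_le_pow_right₀ (by norm_num) ?_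
    generalize i / R = l at *
    generalize (i - 1) / R = l' at *
    omega
  have hc := h.c1
  have hα := h.α0
  have hγ := h.γ0
  have hbK0 : 0 ≤ b * K := mul_nonneg (by linarith only [h.b1]) hK0
  have h2 : c * (α * y i + γ * y i + α * y (i - 1) + γ * y (i - 1)) ≤ α * Y := by
    calc c * (α * y i + γ * y i + α * y (i - 1) + γ * y (i - 1))
        = c * (α + γ) * (y i + y (i - 1)) := by ring
      _ ≤ c * (α + γ) * (3 * y i) :=
          mul_le_mul_of_nonneg_left (by linarith only [hy'])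
            (mul_nonneg (by linarith only [hc]) (by linarith only [hα, hγ]))
      _ = (3 * c * (α + γ)) * y i := by ring
      _ ≤ (α * Rr) * y i := mul_le_mul_of_nonneg_right h.hαγ (h.y0 i).le
      _ = α * Y := by rw [← hYi]; ring
  have h3 : (i : ℝ) + 1 ≤ N := by
    rw [← h.hmN]
    exact_mod_cast hi
  have h4 : ((i : ℝ) + 1) * (b * K) ≤ N * (b * K) := mul_le_mul_of_nonneg_right h3 hbK0
  have h5 : c * K ≤ c * (3 * (D * Z)) := mul_le_mul_of_nonneg_left hK3 (by linarith only [hc])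
  have h6 : α * ∑ j ∈ range (i + 1), y j ≤ α * (Z - Y) := mul_le_mul_of_nonneg_left h1 hα
  have h7 := h.hαZ
  rw [sum_add_distrib, ← mul_sum, sum_const, card_range, nsmul_eq_mul]
  push_cast
  linarith only [h2, h4, h5, h6, h7]

theorem cm (h : Dt b c ν α γ κ ζ D N Rr H Z Zl u r lam R m y) :
    c * N ≤ c * N * (D * Z) ∧ c * (D * Z) ≤ c * N * (D * Z) ∧ 0 < c * N * (D * Z) := by
  have h1 := h.DZ1
  have hc := h.c1
  have hN := h.N1
  have h2 : c * N * 1 ≤ c * N * (D * Z) := mul_le_mul_of_nonneg_left h1 (by positivity)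
  have h3 : 1 * (c * (D * Z)) ≤ N * (c * (D * Z)) :=
    mul_le_mul_of_nonneg_right hN (by positivity)
  exact ⟨by linarith only [h2], by linarith only [h3], by positivity⟩

theorem NK (h : Dt b c ν α γ κ ζ D N Rr H Z Zl u r lam R m y) {K : ℝ}
    (hK3 : K ≤ 3 * (D * Z)) (hK0 : 0 ≤ K) :
    N * (b * K) ≤ 3 * (c * N * (D * Z)) ∧ N * (c * K) ≤ 3 * (c * N * (D * Z)) := by
  have hc := h.c1
  have hN := h.N1
  have h1 : b * K ≤ c * (3 * (D * Z)) := mul_le_mul h.bc hK3 hK0 (by linarith only [hc])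
  have h2 : N * (b * K) ≤ N * (c * (3 * (D * Z))) :=
    mul_le_mul_of_nonneg_left h1 (by linarith only [hN])
  have h3 : c * K ≤ c * (3 * (D * Z)) := mul_le_mul_of_nonneg_left hK3 (by linarith only [hc])
  have h4 : N * (c * K) ≤ N * (c * (3 * (D * Z))) :=
    mul_le_mul_of_nonneg_left h3 (by linarith only [hN])
  exact ⟨by linarith only [h2], by linarith only [h4]⟩

theorem kS (h : Dt b c ν α γ κ ζ D N Rr H Z Zl u r lam R m y) {k : ℝ} (hk : 0 ≤ k) :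
    k * (Z - Zl) ≤ k * Z :=
  mul_le_mul_of_nonneg_left (by linarith only [h.Zl0]) hk

/-- result: shift -/
theorem resA (h : Dt b c ν α γ κ ζ D N Rr H Z Zl u r lam R m y) {K : ℝ}
    (hK3 : K ≤ 3 * (D * Z)) (hK0 : 0 ≤ K) :
    α * (Z - Zl) + N * (b * K) + (1 + 3 * c) * (D * Z) + c * m ≤
      α * Z + 8 * (c * N * (D * Z)) := by
  obtain ⟨h1, h2, -⟩ := h.cm
  have h3 := (h.NK hK3 hK0).1
  have h4 := h.kS h.α0
  have h5 : 1 * (D * Z) ≤ c * (D * Z) :=
    mul_le_mul_of_nonneg_right h.c1 (by linarith only [h.DZ1])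
  rw [h.hmN]
  linarith only [h1, h2, h3, h4, h5]

/-- result: length -/
theorem resN (h : Dt b c ν α γ κ ζ D N Rr H Z Zl u r lam R m y) :
    ∑ i ∈ range m, (ν * y i + α * y i + c * (D * Z + 1)) ≤
      (ν + α) * Z + 2 * (c * N * (D * Z)) := by
  rw [sum_add_distrib, sum_add_distrib, ← mul_sum, ← mul_sum, h.sumy, sum_const, card_range,
    nsmul_eq_mul, h.hmN]
  have h1 := h.kS h.ν0
  have h2 := h.kS h.α0
  have h3 := h.cm.1
  linarith only [h1, h2, h3]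

/-- result: shift with slopes -/
theorem resG (h : Dt b c ν α γ κ ζ D N Rr H Z Zl u r lam R m y) {K M : ℝ}
    (hK3 : K ≤ 3 * (D * Z)) (hK0 : 0 ≤ K) (hM : M + c * m ≤ α * Z + 8 * (c * N * (D * Z))) :
    M + c * m + ∑ i ∈ range m, (γ * y i + (c * (α * y i) + c * K)) ≤
      (γ + 2 * c * α) * Z + 11 * (c * N * (D * Z)) := by
  rw [sum_add_distrib, sum_add_distrib, ← mul_sum, ← mul_sum, ← mul_sum, h.sumy, sum_const,
    card_range, nsmul_eq_mul, h.hmN]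
  have h1 := h.kS h.γ0
  have hc := h.c1
  have h2 := mul_le_mul_of_nonneg_left (h.kS h.α0) (show 0 ≤ c by linarith only [hc])
  have h3 := (h.NK hK3 hK0).2
  have h4 : 1 * (α * Z) ≤ c * (α * Z) :=
    mul_le_mul_of_nonneg_right hc (mul_nonneg h.α0 (by linarith only [h.Z1]))
  rw [h.hmN] at hM
  linarith only [h1, h2, h3, h4, hM]

/-- result: last core -/
theorem resQ (h : Dt b c ν α γ κ ζ D N Rr H Z Zl u r lam R m y) {K : ℝ}
    (hK3 : K ≤ 3 * (D * Z)) :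
    c * (α * y (m - 1) + γ * y (m - 1) + K) ≤ (3 * c + 1) * (D * Z) := by
  have hm1 : m - 1 < m := by have := h.m1; omega
  have h1 := h.yY (m - 1) hm1
  have hlam := h.hlam
  have h2 : (m - 1) / R + 1 = lam := by
    have h3 := h.blk (m - 1) hm1
    have h4 : lam - 1 ≤ (m - 1) / R := by
      rw [Nat.le_div_iff_mul_le h.Rpos, h.hm, Nat.sub_mul, one_mul]
      have := h.Rpos
      omega
    omega
  rw [h2, ← h.hZl] at h1
  have hc := h.c1
  have hy := h.y0 (m - 1)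
  have h3 : c * (3 * K) ≤ c * (3 * (3 * (D * Z))) :=
    mul_le_mul_of_nonneg_left (by linarith only [hK3]) (by linarith only [hc])
  have h4 : (3 * c * (α + γ)) * y (m - 1) ≤ (α * Rr) * y (m - 1) :=
    mul_le_mul_of_nonneg_right h.hαγ hy.le
  have h5 : (α * Rr) * y (m - 1) = α * Zl := by rw [← h1]; ring
  have h6 := h.hαZ
  have h7 := h.DZ1
  linarith only [h3, h4, h5, h6, h7]

/-- result: slope differences -/
theorem resZ (h : Dt b c ν α γ κ ζ D N Rr H Z Zl u r lam R m y) {K : ℝ} :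
    α * (Z - Zl) + N * (b * K) + (1 + 3 * c) * (D * Z) -
      ∑ j ∈ range m, (α * y j + b * K) +
      ∑ i ∈ range m, (ζ * y i + 2) + c * m ≤ ζ * Z + 5 * (c * (D * Z)) := by
  rw [sum_add_distrib, ← mul_sum, h.sumy, sum_const, card_range, nsmul_eq_mul, sum_add_distrib,
    ← mul_sum, h.sumy, sum_const, card_range, nsmul_eq_mul, h.hmN]
  have h1 := h.kS h.ζ0
  have hc := h.c1
  have h2 : 1 * Z ≤ D * Z := mul_le_mul_of_nonneg_right h.D1 (by linarith only [h.Z1])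
  have h3 : 6 * N ≤ D * Z := by linarith only [h.hN6, h.ZlZ, h2]
  have h4 : c * (6 * N) ≤ c * (D * Z) := mul_le_mul_of_nonneg_left h3 (by linarith only [hc])
  have h5 : 1 * (D * Z) ≤ c * (D * Z) :=
    mul_le_mul_of_nonneg_right hc (by linarith only [h.DZ1])
  have h6 := h.DZ1
  linarith only [h1, h3, h4, h5, h6]

/-- result: gain -/
theorem resX (h : Dt b c ν α γ κ ζ D N Rr H Z Zl u r lam R m y) (x : ℝ) :
    x * (Z - Zl) - N - 1 ≤ ∑ i ∈ range m, (x * y i - 1) - 1 := by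
  rw [sum_sub_distrib, ← mul_sum, h.sumy, sum_const, card_range, nsmul_eq_mul, h.hmN, mul_one]

/-- result: denominators -/
theorem resD (h : Dt b c ν α γ κ ζ D N Rr H Z Zl u r lam R m y) :
    ∑ i ∈ range m, (D * y i + 6) ≤ D * Z := by
  rw [sum_add_distrib, ← mul_sum, h.sumy, sum_const, card_range, nsmul_eq_mul, h.hmN]
  have h1 : 1 * Zl ≤ D * Zl := mul_le_mul_of_nonneg_right h.D1 h.Zl0.le
  linarith only [h.hN6, h1]

/-- the step -/
theorem fin (h : Dt b c ν α γ κ ζ D N Rr H Z Zl u r lam R m y) (x : ℝ)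
    {P : ℝ → ℝ → ℝ → ℝ → ℝ → ℝ → ℝ → Prop} (hch : ChainStmt P b c) (hmo : MonoStmt P)
    (hP : ∀ v : ℕ, u ≤ v + r + lam → v + r + 1 ≤ u →
      P (ν * 2 ^ v) (α * 2 ^ v) (γ * 2 ^ v) (κ * 2 ^ v) (ζ * 2 ^ v) (D * 2 ^ v) (x * 2 ^ v)) :
    P ((ν + α) * Z + 2 * (c * N * (D * Z))) (α * Z + 8 * (c * N * (D * Z)))
      ((γ + 2 * c * α) * Z + 11 * (c * N * (D * Z))) ((3 * c + 1) * (D * Z))
      (ζ * Z + 5 * (c * (D * Z))) (D * Z) (x * (Z - Zl) - N - 1) := by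
  obtain ⟨qb, hqb⟩ : ∃ qb : ℝ, qb = κ * H := ⟨_, rfl⟩
  obtain ⟨zb, hzb⟩ : ∃ zb : ℝ, zb = ζ * H := ⟨_, rfl⟩
  obtain ⟨K, hK⟩ : ∃ K : ℝ, K = qb + zb + D * Z + 1 := ⟨_, rfl⟩
  have hH := h.H0
  have hν := h.ν0
  have hα := h.α0
  have hγ := h.γ0
  have hκ := h.κ0
  have hζ := h.ζ0
  have hD := h.D1
  have hqb0 : 0 ≤ qb := by rw [hqb]; positivity
  have hzb0 : 0 ≤ zb := by rw [hzb]; positivity
  have hDZ := h.DZ1
  have hK3 : K ≤ 3 * (D * Z) := by
    rw [hK, hqb, hzb]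
    exact h.K3
  have hK0 : 0 ≤ K := by rw [hK]; linarith only [hqb0, hzb0, hDZ]
  obtain ⟨M, hM⟩ : ∃ M : ℝ, M = α * (Z - Zl) + N * (b * K) + (1 + 3 * c) * (D * Z) := ⟨_, rfl⟩
  have hMa : M + c * m ≤ α * Z + 8 * (c * N * (D * Z)) := by
    rw [hM]
    exact h.resA hK3 hK0
  have key := hch m (fun i => ν * y i) (fun i => α * y i) (fun i => γ * y i)
    (fun i => κ * y i) (fun i => ζ * y i) (fun i => D * y i) (fun i => x * y i) (D * Z) qb zb M
    h.m1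
    (by
      intro i hi
      have h1 := h.blk i hi
      have h2 := h.hrl
      have h3 := hP (u - r - 1 - i / R)
        (by generalize i / R = l at *; omega) (by generalize i / R = l at *; omega)
      have hyi : (2 : ℝ) ^ (u - r - 1 - i / R) = y i := by rw [h.hy]
      rw [hyi] at h3
      exact h3)
    (by
      intro i _
      have := h.y0 i
      refine ⟨?_, ?_, ?_, ?_, ?_, ?_⟩ <;> positivity)
    (by
      intro i _
      have h1 := h.yH i
      refine ⟨?_, ?_⟩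
      · rw [hqb]
        exact mul_le_mul_of_nonneg_left h1 hκ
      · rw [hzb]
        exact mul_le_mul_of_nonneg_left h1 hζ)
    h.resD
    (by
      intro i hi
      have h1 := h.condM hK3 hK0 i hi
      rw [← hM] at h1
      refine le_trans (le_of_eq ?_) h1
      simp only [hK]
      ring)
  refine hmo key h.resN hMa ?_ ?_ ?_ le_rfl (h.resX x)
  · refine le_trans (le_of_eq ?_) (h.resG hK3 hK0 hMa)
    congr 1
    refine sum_congr rfl ?_
    intro i _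
    simp only [hK]
    ring
  · refine le_trans (le_of_eq ?_) (h.resQ hK3)
    simp only [hK]
    ring
  · refine le_trans (le_of_eq ?_) (h.resZ (K := K))
    simp only [hM, hK]

end Dt

/-- **one step with constant multiples** -/
theorem genStep : GenStepStmt := by
  intro P b c hb hbc hch hmo u r lam ν α γ κ ζ D x hrl hlam hν hα hγ hκ hζ hD hP hκ2 hζ2 hαγ hαZ
    hN6
  have h : Dt b c ν α γ κ ζ D ((lam : ℝ) * 2 ^ r) ((2 : ℝ) ^ r) ((2 : ℝ) ^ (u - r - 1))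
      ((2 : ℝ) ^ u) ((2 : ℝ) ^ (u - lam)) u r lam (2 ^ r) (lam * 2 ^ r)
      (fun i => (2 : ℝ) ^ (u - r - 1 - i / 2 ^ r)) :=
    ⟨hb, hbc, hrl, hlam, rfl, rfl, by push_cast; rfl, rfl, rfl, rfl, rfl, rfl, hν, hα, hγ, hκ, hζ,
      hD, hκ2, hζ2, hαγ, hαZ, hN6⟩
  refine hmo (h.fin x hch hmo hP) (le_of_eq ?_) (le_of_eq ?_) (le_of_eq ?_) (le_of_eq ?_)
    (le_of_eq ?_) le_rfl (le_of_eq ?_) <;> ring

end Vale.Agent.P065.R2.H427.Gen
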