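import Vale.Agent.P065.R2.H919.Psi

/-!
# P065, stage B': the loss function `log t / (log log t) ^ (2/3)` (helper427)
-/

set_option autoImplicit false

namespace Vale.Agent.P065.R2.H427.Loss23

open Vale.Agent.P065.R2.H919

/-- `y / (log y) ^ (2/3)` is increasing for `y ≥ e` -/
theorem mono23 {y1 y2 : ℝ} (h1 : Real.exp 1 ≤ y1) (h : y1 ≤ y2) :
    y1 / (Real.log y1) ^ (2 / 3 : ℝ) ≤ y2 / (Real.log y2) ^ (2 / 3 : ℝ) := by
  have hy1 : 0 < y1 := (Real.exp_pos 1).trans_le h1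
  have hy2 : 0 < y2 := hy1.trans_le h
  have hl1 : 1 ≤ Real.log y1 := by rw [Real.le_log_iff_exp_le hy1]; exact h1
  have hl2 : 1 ≤ Real.log y2 := by rw [Real.le_log_iff_exp_le hy2]; exact h1.trans h
  have hl10 : 0 < Real.log y1 := by linarith only [hl1]
  have hl20 : 0 < Real.log y2 := by linarith only [hl2]
  have m := Real.log_div_self_antitoneOn (show y1 ∈ {x : ℝ | Real.exp 1 ≤ x} from h1)
    (show y2 ∈ {x : ℝ | Real.exp 1 ≤ x} from h1.trans h) h
  simp only at m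
  rw [div_le_div_iff₀ hy2 hy1] at m
  have p := Real.rpow_le_rpow (by positivity) m (show (0 : ℝ) ≤ 2 / 3 by norm_num)
  rw [Real.mul_rpow hl20.le hy1.le, Real.mul_rpow hl10.le hy2.le] at p
  have q := Real.rpow_le_rpow hy1.le h (show (0 : ℝ) ≤ 1 / 3 by norm_num)
  have e1 : y1 ^ (2 / 3 : ℝ) * y1 ^ (1 / 3 : ℝ) = y1 := by
    rw [← Real.rpow_add hy1]
    norm_num
  have e2 : y2 ^ (2 / 3 : ℝ) * y2 ^ (1 / 3 : ℝ) = y2 := by
    rw [← Real.rpow_add hy2]
    norm_num
  have a1 : 0 < (Real.log y1) ^ (2 / 3 : ℝ) := Real.rpow_pos_of_pos hl10 _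
  have a2 : 0 < (Real.log y2) ^ (2 / 3 : ℝ) := Real.rpow_pos_of_pos hl20 _
  have b1 : 0 < y1 ^ (1 / 3 : ℝ) := Real.rpow_pos_of_pos hy1 _
  have b2 : 0 < y2 ^ (2 / 3 : ℝ) := Real.rpow_pos_of_pos hy2 _
  rw [div_le_div_iff₀ a1 a2]
  calc y1 * (Real.log y2) ^ (2 / 3 : ℝ)
      = ((Real.log y2) ^ (2 / 3 : ℝ) * y1 ^ (2 / 3 : ℝ)) * y1 ^ (1 / 3 : ℝ) := by
        rw [mul_assoc, e1, mul_comm]
    _ ≤ ((Real.log y1) ^ (2 / 3 : ℝ) * y2 ^ (2 / 3 : ℝ)) * y2 ^ (1 / 3 : ℝ) :=
        mul_le_mul p q b1.le (by positivity)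
    _ = y2 * (Real.log y1) ^ (2 / 3 : ℝ) := by
        rw [mul_assoc, e2, mul_comm]

/-- **the loss function** -/
theorem loss23 : Loss (fun t : ℝ => Real.log t / (Real.log (Real.log t)) ^ (2 / 3 : ℝ)) := by
  have ex : Real.exp 1 < 3 := by have := Real.exp_one_lt_d9; linarith only [this]
  have e3 : (3 : ℝ) < Real.exp 3 := by
    have := Real.add_one_lt_exp (show (3 : ℝ) ≠ 0 by norm_num)
    linarith only [this]
  -- facts for large `L`
  have big : ∀ L : ℝ, Real.exp (Real.exp 3) ≤ L → 0 < L ∧ 3 < Real.log L ∧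
      3 ≤ Real.log (Real.log L) := by
    intro L hL
    have h0 : 0 < L := lt_of_lt_of_le (Real.exp_pos _) hL
    have h1 : Real.exp 3 ≤ Real.log L := by
      rw [Real.le_log_iff_exp_le h0]; exact hL
    refine ⟨h0, e3.trans_le h1, ?_⟩
    rw [Real.le_log_iff_exp_le (lt_of_lt_of_le (Real.exp_pos _) h1)]
    exact h1
  refine ⟨⟨Real.exp (Real.exp 3), fun L hL => ?_⟩, ⟨Real.exp (Real.exp 3), fun L hL => ?_⟩,
    ⟨2 * Real.exp (Real.exp 3), fun t L ht htL => ?_⟩⟩
  · obtain ⟨-, h1, h2⟩ := big L hL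
    have h3 : 0 < Real.log L := by linarith only [h1]
    have h4 : (Real.log (Real.log L)) ^ (2 / 3 : ℝ) ≤ Real.log (Real.log L) := by
      have := Real.rpow_le_rpow_of_exponent_le (show 1 ≤ Real.log (Real.log L) by
        linarith only [h2]) (show (2 / 3 : ℝ) ≤ 1 by norm_num)
      rwa [Real.rpow_one] at this
    have h5 : 0 < (Real.log (Real.log L)) ^ (2 / 3 : ℝ) :=
      Real.rpow_pos_of_pos (by linarith only [h2]) _
    show 1 ≤ Real.log L / (Real.log (Real.log L)) ^ (2 / 3 : ℝ)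
    rw [one_le_div h5]
    have := Real.log_le_sub_one_of_pos h3
    linarith only [this, h4]
  · obtain ⟨-, h1, h2⟩ := big L hL
    have h3 : 0 < Real.log L := by linarith only [h1]
    show Real.log L / (Real.log (Real.log L)) ^ (2 / 3 : ℝ) ≤ Real.log L
    exact div_le_self h3.le (Real.one_le_rpow (by linarith only [h2]) (by norm_num))
  · have hee := Real.exp_pos (Real.exp 3)
    obtain ⟨hL0, h1, h2⟩ := big L (by linarith only [ht, htL])
    obtain ⟨ht0, h4, h5⟩ := big t (by linarith only [ht, hee])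
    have h3 : 0 < Real.log L := by linarith only [h1]
    have h7 : Real.log t ≤ 2 * Real.log L := by
      have a1 : Real.log t ≤ Real.log (2 * L) := Real.log_le_log ht0 htL
      have a2 : Real.log (2 * L) = Real.log 2 + Real.log L :=
        Real.log_mul (by norm_num) hL0.ne'
      have a3 := Real.log_two_lt_d9
      linarith only [a1, a2, a3, h1]
    have h8 := mono23 (show Real.exp 1 ≤ Real.log t by linarith only [ex, h4]) h7
    have h9 : (Real.log (Real.log L)) ^ (2 / 3 : ℝ) ≤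
        (Real.log (2 * Real.log L)) ^ (2 / 3 : ℝ) := by
      refine Real.rpow_le_rpow (by linarith only [h2]) ?_ (by norm_num)
      exact Real.log_le_log h3 (by linarith only [h3])
    have h10 : 0 < (Real.log (Real.log L)) ^ (2 / 3 : ℝ) :=
      Real.rpow_pos_of_pos (by linarith only [h2]) _
    show Real.log t / (Real.log (Real.log t)) ^ (2 / 3 : ℝ) ≤
      2 * (Real.log L / (Real.log (Real.log L)) ^ (2 / 3 : ℝ))
    rw [← mul_div_assoc]
    exact h8.trans (div_le_div_of_nonneg_left (by linarith only [h3]) h10 h9)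

end Vale.Agent.P065.R2.H427.Loss23
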